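import Vale.Agent.H24.GSH.Defs

namespace Vale.Agent.H24.GSH.RowC
open Vale.Agent.H24.GSH

section
variable {α Q : Type}

/-- words leading from `some i` to the first visit of the base state -/
def E (δ : Option Q → α → Option Q) (i : Q) : Set (List α) :=
  {w | ∃ pb : Q × α, δ (some pb.1) pb.2 = none ∧
    w ∈ cat {u | run (fun q a => δ (some q) a) i u = some pb.1} {[pb.2]}}

/-- first return words -/
def X (δ : Option Q → α → Option Q) : Set (List α) :=
  {w | ∃ a, δ none a = none ∧ w ∈ ({[a]} : Set (List α))} ∪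
    {w | ∃ aq : α × Q, δ none aq.1 = some aq.2 ∧ w ∈ cat {[aq.1]} (E δ aq.2)}

/-- words leaving the base state for ever, ending in `some j` -/
def Y (δ : Option Q → α → Option Q) (j : Q) : Set (List α) :=
  {w | ∃ aq : α × Q, δ none aq.1 = some aq.2 ∧
    w ∈ cat {[aq.1]} {u | run (fun q a => δ (some q) a) aq.2 u = some j}}

theorem E_cons (δ : Option Q → α → Option Q) {i q : Q} {a : α} (h : δ (some i) a = some q)
    (u : List α) : a :: u ∈ E δ i ↔ u ∈ E δ q := by
  constructor
  · rintro ⟨⟨p, b⟩, hb, x, hx, y, hy, e⟩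
    obtain rfl : y = [b] := hy
    cases x with
    | nil =>
      simp only [List.nil_append, List.cons.injEq] at e
      obtain ⟨rfl, rfl⟩ := e
      have hx' : i = p := by simpa [run] using hx
      subst hx'
      rw [h] at hb
      exact absurd hb (by simp)
    | cons c x =>
      simp only [List.cons_append, List.cons.injEq] at e
      obtain ⟨rfl, rfl⟩ := e
      refine ⟨⟨p, b⟩, hb, x, ?_, [b], rfl, rfl⟩
      simpa [run, h] using hx
  · rintro ⟨⟨p, b⟩, hb, x, hx, y, hy, rfl⟩
    refine ⟨⟨p, b⟩, hb, a :: x, ?_, y, hy, rfl⟩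
    simpa [run, h] using hx

theorem split (δ : Option Q → α → Option Q) (j : Option Q) (w : List α) : ∀ i : Q,
    w.foldl δ (some i) = j ↔
      (∃ p, j = some p ∧ run (fun q a => δ (some q) a) i w = some p) ∨
      (∃ u v, w = u ++ v ∧ u ∈ E δ i ∧ v.foldl δ none = j) := by
  induction w with
  | nil =>
    intro i
    constructor
    · intro h
      exact Or.inl ⟨i, by simpa using h.symm, by simp [run]⟩
    · rintro (⟨p, rfl, hp⟩ | ⟨u, v, e, hu, -⟩)
      · simpa [run] using hp
      · obtain ⟨⟨p, b⟩, hb, x, hx, y, hy, rfl⟩ := hu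
        obtain rfl : y = [b] := hy
        simp at e
  | cons a w ih =>
    intro i
    rw [List.foldl_cons]
    cases hd : δ (some i) a with
    | none =>
      constructor
      · intro h
        exact Or.inr ⟨[a], w, rfl, ⟨⟨i, a⟩, hd, [], by simp [run], [a], rfl, rfl⟩, h⟩
      · rintro (⟨p, rfl, hp⟩ | ⟨u, v, e, hu, hv⟩)
        · simp [run, hd] at hp
        · obtain ⟨⟨p, b⟩, hb, x, hx, y, hy, rfl⟩ := hu
          obtain rfl : y = [b] := hy
          cases x with
          | nil =>
            simp only [List.nil_append, List.cons_append, List.cons.injEq] at e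
            rw [e.2]; exact hv
          | cons c x =>
            simp only [List.cons_append, List.cons.injEq] at e
            obtain ⟨rfl, -⟩ := e
            simp [run, hd] at hx
    | some q =>
      rw [ih q]
      constructor
      · rintro (⟨p, rfl, hp⟩ | ⟨u, v, rfl, hu, hv⟩)
        · exact Or.inl ⟨p, rfl, by simpa [run, hd] using hp⟩
        · exact Or.inr ⟨a :: u, v, rfl, (E_cons δ hd u).2 hu, hv⟩
      · rintro (⟨p, rfl, hp⟩ | ⟨u, v, e, hu, hv⟩)
        · exact Or.inl ⟨p, rfl, by simpa [run, hd] using hp⟩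
        · cases u with
          | nil =>
            obtain ⟨⟨p, b⟩, hb, x, hx, y, hy, e'⟩ := hu
            obtain rfl : y = [b] := hy
            simp at e'
          | cons c u =>
            simp only [List.cons_append, List.cons.injEq] at e
            obtain ⟨rfl, rfl⟩ := e
            exact Or.inr ⟨u, v, rfl, (E_cons δ hd u).1 hu, hv⟩

theorem foldl_E (δ : Option Q → α → Option Q) {i : Q} {u : List α} (hu : u ∈ E δ i) :
    u.foldl δ (some i) = none :=
  (split δ none u i).2 (Or.inr ⟨u, [], by simp, hu, rfl⟩)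

theorem foldl_X (δ : Option Q → α → Option Q) {u : List α} (hu : u ∈ X δ) :
    u.foldl δ none = none := by
  rcases hu with ⟨a, ha, rfl⟩ | ⟨⟨a, q⟩, ha, x, hx, y, hy, rfl⟩
  · simpa using ha
  · obtain rfl : x = [a] := hx
    simp only [List.foldl_append, List.foldl_cons, List.foldl_nil]
    rw [ha]
    exact foldl_E δ hy

theorem foldl_kst (δ : Option Q → α → Option Q) {u : List α} (hu : u ∈ kst (X δ)) :
    u.foldl δ none = none := by
  obtain ⟨l, hl, rfl⟩ := hu
  induction l with
  | nil => simp
  | cons x l ih =>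
    rw [List.flatten_cons, List.foldl_append, foldl_X δ (hl x (by simp))]
    exact ih fun u hu => hl u (by simp [hu])

theorem kst_nil (L : Set (List α)) : ([] : List α) ∈ kst L := ⟨[], by simp, rfl⟩

theorem kst_append {L : Set (List α)} {x u : List α} (hx : x ∈ L) (hu : u ∈ kst L) :
    x ++ u ∈ kst L := by
  obtain ⟨l, hl, rfl⟩ := hu
  refine ⟨x :: l, ?_, by simp⟩
  intro u hu
  rcases List.mem_cons.1 hu with rfl | h
  · exact hx
  · exact hl u h

theorem base_aux (δ : Option Q → α → Option Q) : ∀ (n : ℕ) (w : List α), w.length ≤ n →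
    ∀ j, w.foldl δ none = j →
      ∃ u v, w = u ++ v ∧ u ∈ kst (X δ) ∧ ((v = [] ∧ j = none) ∨ ∃ p, j = some p ∧ v ∈ Y δ p) := by
  intro n
  induction n with
  | zero =>
    intro w hw j hj
    have : w = [] := List.length_eq_zero_iff.1 (by omega)
    subst this
    exact ⟨[], [], rfl, kst_nil _, Or.inl ⟨rfl, by simpa using hj.symm⟩⟩
  | succ n ih =>
    intro w hw j hj
    cases w with
    | nil => exact ⟨[], [], rfl, kst_nil _, Or.inl ⟨rfl, by simpa using hj.symm⟩⟩
    | cons a w =>
      rw [List.foldl_cons] at hj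
      rw [List.length_cons] at hw
      cases hd : δ none a with
      | none =>
        rw [hd] at hj
        obtain ⟨u, v, rfl, hu, hv⟩ := ih w (by omega) j hj
        exact ⟨[a] ++ u, v, by simp, kst_append (Or.inl ⟨a, hd, rfl⟩) hu, hv⟩
      | some q =>
        rw [hd, split] at hj
        rcases hj with ⟨p, rfl, hp⟩ | ⟨u1, v1, rfl, hu1, hv1⟩
        · exact ⟨[], a :: w, rfl, kst_nil _, Or.inr ⟨p, rfl, ⟨⟨a, q⟩, hd, [a], rfl, w, hp, rfl⟩⟩⟩
        · have hlen : v1.length ≤ n := by
            rw [List.length_append] at hw; omega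
          obtain ⟨u, v, rfl, hu, hv⟩ := ih v1 hlen j hv1
          refine ⟨(a :: u1) ++ u, v, by simp, kst_append (Or.inr ⟨⟨a, q⟩, hd, [a], rfl, u1, hu1, rfl⟩) hu, hv⟩

theorem base_none (δ : Option Q → α → Option Q) :
    {w : List α | w.foldl δ none = none} = kst (X δ) := by
  ext w
  constructor
  · intro h
    obtain ⟨u, v, rfl, hu, hv⟩ := base_aux δ w.length w le_rfl _ h
    rcases hv with ⟨rfl, -⟩ | ⟨p, hp, -⟩
    · simpa using hu
    · simp at hp
  · exact fun h => foldl_kst δ h

theorem base_some (δ : Option Q → α → Option Q) (j : Q) :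
    {w : List α | w.foldl δ none = some j} = cat (kst (X δ)) (Y δ j) := by
  ext w
  constructor
  · intro h
    obtain ⟨u, v, rfl, hu, hv⟩ := base_aux δ w.length w le_rfl _ h
    rcases hv with ⟨-, hj⟩ | ⟨p, hp, hv⟩
    · simp at hj
    · obtain rfl : j = p := by simpa using hp
      exact ⟨u, hu, v, hv, rfl⟩
  · rintro ⟨u, hu, v, ⟨⟨a, q⟩, ha, x, hx, y, hy, rfl⟩, rfl⟩
    obtain rfl : x = [a] := hx
    show List.foldl δ none _ = _
    rw [List.foldl_append, foldl_kst δ hu, List.singleton_append, List.foldl_cons, ha, split]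
    exact Or.inl ⟨j, rfl, hy⟩

theorem some_eq (δ : Option Q → α → Option Q) (i : Q) (j : Option Q) :
    {w : List α | w.foldl δ (some i) = j} =
      {w | ∃ p, j = some p ∧ w ∈ {w | run (fun q a => δ (some q) a) i w = some p}} ∪
        cat (E δ i) {w | w.foldl δ none = j} := by
  ext w
  show w.foldl δ (some i) = j ↔ _
  rw [split]
  constructor
  · rintro (h | ⟨u, v, rfl, hu, hv⟩)
    · exact Or.inl h
    · exact Or.inr ⟨u, hu, v, hv, rfl⟩
  · rintro (h | ⟨u, hu, v, hv, rfl⟩)
    · exact Or.inl h
    · exact Or.inr ⟨u, v, rfl, hu, hv⟩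

/-- ROW C from ROW S -/
theorem criterion_of [Fintype α] [DecidableEq α] [Fintype Q]
    (δ : Option Q → α → Option Q)
    (hS : ∀ i j : Q, H 0 {w : List α | run (fun q a => δ (some q) a) i w = some j})
    (i j : Option Q) :
    H 1 {w : List α | w.foldl δ i = j} := by
  have hE : ∀ i, H 0 (E δ i) := fun i =>
    H_iUnion_prop (fun pb : Q × α => δ (some pb.1) pb.2 = none) _
      (fun pb _ => (hS i pb.1).cat (H_letter pb.2))
  have hX : H 0 (X δ) :=
    (H_iUnion_prop (fun a : α => δ none a = none) _ (fun a _ => H_letter a)).union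
      (H_iUnion_prop (fun aq : α × Q => δ none aq.1 = some aq.2) _
        (fun aq _ => (H_letter aq.1).cat (hE aq.2)))
  have hY : ∀ j, H 0 (Y δ j) := fun j =>
    H_iUnion_prop (fun aq : α × Q => δ none aq.1 = some aq.2) _
      (fun aq _ => (H_letter aq.1).cat (hS aq.2 j))
  have hbase : ∀ j, H 1 {w : List α | w.foldl δ none = j} := by
    intro j
    cases j with
    | none => rw [base_none]; exact hX.star
    | some j => rw [base_some]; exact hX.star.cat ((hY j).mono (by omega))
  cases i with
  | none => exact hbase j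
  | some i =>
    rw [some_eq]
    refine H.union ?_ (((hE i).mono (by omega)).cat (hbase j))
    exact H_iUnion_prop (fun p : Q => j = some p) _ (fun p _ => (hS i p).mono (by omega))

end

end Vale.Agent.H24.GSH.RowC
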