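import Vale.Agent.H24.GSH.S3
import Vale.Agent.H24.GSH.C
import Vale.Agent.H5.GSH.D
import Vale.Agent.H25.GSH.G
import Vale.Agent.H25.GSH.A
import Vale.Agent.H7.GSH.N

namespace Vale.Agent.H24.GSH

theorem Mono.cf {α Q : Type} [LinearOrder Q] {δ : Q → α → Option Q} (hm : Mono δ) : CF δ := by
  have key : ∀ (w : List α) (n : ℕ) (q r z : Q), run δ q w = some r →
      run δ q (rep w (n + 1)) = some z → (q < r → q < z) ∧ (r < q → z < q) := by
    intro w n
    induction n with
    | zero =>
      intro q r z h1 h2
      simp only [rep, List.replicate_succ, List.replicate_zero, List.flatten_cons,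
        List.flatten_nil, List.append_nil] at h2
      rw [h1] at h2
      obtain rfl := Option.some.inj h2
      exact ⟨id, id⟩
    | succ n ih =>
      intro q r z h1 h2
      rw [rep_succ, run_append, h1] at h2
      simp only [Option.bind_some] at h2
      cases hr : run δ r w with
      | none =>
        rw [rep_succ, run_append, hr] at h2
        simp at h2
      | some s =>
        obtain ⟨h3, h4⟩ := ih r s z hr h2
        constructor
        · intro h; exact h.trans (h3 (run_mono hm w q r r s h h1 hr))
        · intro h; exact (h4 (run_mono hm w r q s r h hr h1)).trans h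
  intro w q n h
  cases hr : run δ q w with
  | none => rw [rep_succ, run_append, hr] at h; simp at h
  | some r =>
    obtain ⟨h1, h2⟩ := key w n q r q hr h
    rcases lt_trichotomy q r with h3 | h3 | h3
    · exact absurd (h1 h3) (lt_irrefl q)
    · rw [h3]
    · exact absurd (h2 h3) (lt_irrefl q)

theorem criterion_cf {α Q : Type} [Fintype α] [DecidableEq α] [Fintype Q]
    (δ : Option Q → α → Option Q) (hm : CF (fun q a => δ (some q) a)) (i j : Option Q) :
    H 1 {w : List α | w.foldl δ i = j} :=
  RowC.criterion_of δ (fun i j => sf_run_cf _ hm i j) i j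

theorem criterion {α Q : Type} [Fintype α] [DecidableEq α] [Fintype Q] [LinearOrder Q]
    (δ : Option Q → α → Option Q) (hm : Mono (fun q a => δ (some q) a)) (i j : Option Q) :
    H 1 {w : List α | w.foldl δ i = j} :=
  criterion_cf δ hm.cf i j

/-- languages recognised by the transition monoid -/
theorem criterion_rec {α Q : Type} [Fintype α] [DecidableEq α] [Fintype Q]
    (δ : Option Q → α → Option Q) (hm : CF (fun q a => δ (some q) a))
    (T : Set (Option Q → Option Q)) :
    H 1 {w : List α | (fun i => w.foldl δ i) ∈ T} := by
  classical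
  have h := H_iUnion_prop (k := 1) (fun f : Option Q → Option Q => f ∈ T)
    (fun f => ⋂ i, {w : List α | w.foldl δ i = f i})
    (fun f _ => H_iInter _ fun i => criterion_cf δ hm i (f i))
  convert h using 1
  ext w
  constructor
  · intro hw
    exact ⟨_, hw, by simp⟩
  · rintro ⟨f, hf, hw⟩
    have : (fun i => w.foldl δ i) = f := by
      funext i
      exact (Set.mem_iInter.1 hw i)
    show _ ∈ T
    rw [this]; exact hf

theorem machine {α : Type} [Fintype α] [DecidableEq α] (c : α → Fin 3) (a : α) (x y : S) :
    H 1 {w : List α | w.foldl (fun s b => bstep s (c b) (decide (b = a))) x = y} :=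
  Vale.Agent.H5.GSH.machine (fun _ _ _ _ _ _ δ hm i j => criterion δ hm i j) c a x y

theorem group_result {G : Type} [Group G] (π : G →* Multiplicative (ZMod 3))
    (hker : ∀ g, π g = 1 → g * g = 1) {α : Type} [Fintype α] [DecidableEq α] (φ : α → G)
    (T : Set G) : H 1 {w : List α | (w.map φ).prod ∈ T} :=
  RowG.group_result_of (fun c a x y => machine c a x y) π hker φ T

theorem star_transpositions {n : ℕ} (T : Set (Equiv.Perm (Option (Fin n)))) :
    H 1 {w : List (Fin n) | (w.map fun i => Equiv.swap none (some i)).prod ∈ T} :=
  N.star_transpositions_of (fun δ hm i j => criterion δ hm i j) T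

end Vale.Agent.H24.GSH
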