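import Vale.Agent.H24.GSH.Defs

namespace Vale.Agent.H24.GSH

/-- `w` repeated `n` times -/
def rep {α : Type} (w : List α) (n : ℕ) : List α := (List.replicate n w).flatten

/-- counter-free partial automaton: no word induces a nontrivial cycle -/
def CF {α Q : Type} (δ : Q → α → Option Q) : Prop :=
  ∀ (w : List α) (q : Q) (n : ℕ), run δ q (rep w (n + 1)) = some q → run δ q w = some q

/-- The language `L` is recognized by the monoid `M`: membership of a word in `L` depends only on
its image under a morphism from words to `M`. -/
def Recognized {α : Type} (M : Type) [Monoid M] (L : Set (List α)) : Prop :=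
  ∃ (φ : α → M) (T : Set M), L = {w | (w.map φ).prod ∈ T}

/-- the 3-cycle `none → i → j → none` -/
def cyc3 {n : ℕ} (i j : Fin n) : Equiv.Perm (Option (Fin n)) :=
  Equiv.swap none (some j) * Equiv.swap none (some i)

end Vale.Agent.H24.GSH
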