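import Mathlib

/-! Generalized star height (P329) -/

namespace Vale.Agent.H24.GSH

/-- generalized regular expressions over `α` -/
inductive GRE (α : Type) : Type
  | zero : GRE α
  | one : GRE α
  | letter : α → GRE α
  | add : GRE α → GRE α → GRE α
  | mul : GRE α → GRE α → GRE α
  | compl : GRE α → GRE α
  | star : GRE α → GRE α

/-- the language denoted by an expression -/
def GRE.lang {α : Type} : GRE α → Set (List α)
  | .zero => ∅
  | .one => {[]}
  | .letter a => {[a]}
  | .add P Q => P.lang ∪ Q.lang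
  | .mul P Q => {w | ∃ u ∈ P.lang, ∃ v ∈ Q.lang, w = u ++ v}
  | .compl P => P.langᶜ
  | .star P => {w | ∃ l : List (List α), (∀ u ∈ l, u ∈ P.lang) ∧ w = l.flatten}

/-- star height of an expression -/
def GRE.sh {α : Type} : GRE α → ℕ
  | .zero => 0
  | .one => 0
  | .letter _ => 0
  | .add P Q => max P.sh Q.sh
  | .mul P Q => max P.sh Q.sh
  | .compl P => P.sh
  | .star P => P.sh + 1

section
attribute [local simp] GRE.lang GRE.sh
end

/-- `L` has generalized star height at most `k` -/
def H {α : Type} (k : ℕ) (L : Set (List α)) : Prop :=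
  ∃ P : GRE α, P.sh ≤ k ∧ P.lang = L

/-- concatenation of languages -/
def cat {α : Type} (L M : Set (List α)) : Set (List α) := {w | ∃ u ∈ L, ∃ v ∈ M, w = u ++ v}

/-- star of a language -/
def kst {α : Type} (L : Set (List α)) : Set (List α) :=
  {w | ∃ l : List (List α), (∀ u ∈ l, u ∈ L) ∧ w = l.flatten}

section basic
variable {α : Type} {k m : ℕ} {L M : Set (List α)}

theorem H.mono (h : H k L) (hk : k ≤ m) : H m L := by
  obtain ⟨P, h1, h2⟩ := h
  exact ⟨P, h1.trans hk, h2⟩

theorem H_empty : H k (∅ : Set (List α)) := ⟨.zero, by simp [GRE.sh], rfl⟩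

theorem H_eps : H k ({[]} : Set (List α)) := ⟨.one, by simp [GRE.sh], rfl⟩

theorem H_letter (a : α) : H k ({[a]} : Set (List α)) := ⟨.letter a, by simp [GRE.sh], rfl⟩

theorem H.union (h1 : H k L) (h2 : H k M) : H k (L ∪ M) := by
  obtain ⟨P, hP, rfl⟩ := h1
  obtain ⟨Q, hQ, rfl⟩ := h2
  exact ⟨.add P Q, by simp [GRE.sh, hP, hQ], rfl⟩

theorem H.cat (h1 : H k L) (h2 : H k M) : H k (cat L M) := by
  obtain ⟨P, hP, rfl⟩ := h1
  obtain ⟨Q, hQ, rfl⟩ := h2
  exact ⟨.mul P Q, by simp [GRE.sh, hP, hQ], rfl⟩

theorem H.compl (h1 : H k L) : H k Lᶜ := by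
  obtain ⟨P, hP, rfl⟩ := h1
  exact ⟨.compl P, by simp [GRE.sh, hP], rfl⟩

theorem H.star (h1 : H k L) : H (k + 1) (kst L) := by
  obtain ⟨P, hP, rfl⟩ := h1
  exact ⟨.star P, by simp [GRE.sh, hP], rfl⟩

theorem H.inter (h1 : H k L) (h2 : H k M) : H k (L ∩ M) := by
  have := (h1.compl.union h2.compl).compl
  simpa [Set.compl_union] using this

theorem H_univ : H k (Set.univ : Set (List α)) := by
  have := (H_empty (α := α) (k := k)).compl
  simpa using this

theorem H_biUnion {ι : Type*} (s : Finset ι) (f : ι → Set (List α))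
    (h : ∀ i ∈ s, H k (f i)) : H k (⋃ i ∈ s, f i) := by
  classical
  induction s using Finset.induction_on with
  | empty => simpa using H_empty
  | insert a s ha ih =>
    rw [Finset.set_biUnion_insert]
    exact (h a (Finset.mem_insert_self a s)).union
      (ih fun i hi => h i (Finset.mem_insert_of_mem hi))

theorem H_iUnion {ι : Type*} [Finite ι] (f : ι → Set (List α))
    (h : ∀ i, H k (f i)) : H k (⋃ i, f i) := by
  classical
  have := Fintype.ofFinite ι
  have h2 := H_biUnion Finset.univ f (fun i _ => h i)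
  simpa using h2

theorem H_iInter {ι : Type*} [Finite ι] (f : ι → Set (List α))
    (h : ∀ i, H k (f i)) : H k (⋂ i, f i) := by
  have := (H_iUnion (fun i => (f i)ᶜ) (fun i => (h i).compl)).compl
  simpa [Set.compl_iUnion] using this

/-- union over a finite type, restricted by a condition -/
theorem H_iUnion_prop {ι : Type*} [Finite ι] (p : ι → Prop) (f : ι → Set (List α))
    (h : ∀ i, p i → H k (f i)) : H k {w | ∃ i, p i ∧ w ∈ f i} := by
  classical
  have h2 : H k (⋃ i, (if p i then f i else ∅)) := by
    apply H_iUnion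
    intro i
    by_cases hp : p i
    · simpa [hp] using h i hp
    · simpa [hp] using H_empty
  convert h2 using 1
  ext w
  simp only [Set.mem_setOf_eq, Set.mem_iUnion]
  constructor
  · rintro ⟨i, hp, hw⟩
    exact ⟨i, by simpa [hp] using hw⟩
  · rintro ⟨i, hi⟩
    by_cases hp : p i
    · exact ⟨i, hp, by simpa [hp] using hi⟩
    · simp [hp] at hi

/-- words over a set of letters -/
theorem H_over [Finite α] (B : Set α) : H 0 {w : List α | ∀ a ∈ w, a ∈ B} := by
  have h : H 0 {w : List α | ∃ a, a ∉ B ∧ w ∈ cat Set.univ (cat {[a]} Set.univ)} :=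
    H_iUnion_prop (fun a => a ∉ B) _ (fun a _ => H_univ.cat ((H_letter a).cat H_univ))
  have e : {w : List α | ∀ a ∈ w, a ∈ B} =
      {w : List α | ∃ a, a ∉ B ∧ w ∈ cat Set.univ (cat {[a]} Set.univ)}ᶜ := by
    ext w
    constructor
    · rintro h ⟨a, ha, u, -, v, ⟨x, hx, y, -, rfl⟩, rfl⟩
      obtain rfl : x = [a] := hx
      exact ha (h a (by simp))
    · intro h a ha
      by_contra hB
      obtain ⟨s, t, rfl⟩ := List.append_of_mem ha
      exact h ⟨a, hB, s, trivial, a :: t, ⟨[a], rfl, t, trivial, rfl⟩, rfl⟩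
  rw [e]
  exact h.compl

end basic

/-- run of a partial automaton -/
def run {α Q : Type} (δ : Q → α → Option Q) : Q → List α → Option Q
  | q, [] => some q
  | q, a :: w => (δ q a).bind fun q' => run δ q' w

/-- every letter acts as an order preserving partial injection -/
def Mono {α Q : Type} [LinearOrder Q] (δ : Q → α → Option Q) : Prop :=
  ∀ a p q p' q', p < q → δ p a = some p' → δ q a = some q' → p' < q'

/-- the residue in `Fin 6` is moved by `0, 1, -1` for `c = 0, 1, 2` -/
def mv (u : Fin 6) (c : Fin 3) : Fin 6 := if c = 0 then u else if c = 1 then u + 1 else u - 1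

/-- states `(u, n0, n1, n2)`: `u` = sum of the moves, `n_t` = parity of the number of occurrences of
the marked letter at positions where `u ≡ t (mod 3)` before reading -/
abbrev S : Type := Fin 6 × Bool × Bool × Bool

/-- one step of the counting machine: `c` = move of the letter, `f` = is the letter marked? -/
def bstep (x : S) (c : Fin 3) (f : Bool) : S :=
  (mv x.1 c, xor x.2.1 (f && decide (x.1.val % 3 = 0)), xor x.2.2.1 (f && decide (x.1.val % 3 = 1)),
    xor x.2.2.2 (f && decide (x.1.val % 3 = 2)))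

section
attribute [local simp] run
end

end Vale.Agent.H24.GSH
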