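import Vale.Agent.H24.GSH.Defs

namespace Vale.Agent.H24.GSH

section runs
variable {α Q : Type}

theorem run_append (δ : Q → α → Option Q) (q : Q) (u v : List α) :
    run δ q (u ++ v) = (run δ q u).bind fun p => run δ p v := by
  induction u generalizing q with
  | nil => simp [run]
  | cons a u ih =>
    simp only [List.cons_append, run]
    cases h : δ q a with
    | none => simp
    | some r => simp [ih]

theorem run_mono [LinearOrder Q] {δ : Q → α → Option Q} (hm : Mono δ) (w : List α) :
    ∀ p q p' q' : Q, p < q → run δ p w = some p' → run δ q w = some q' → p' < q' := by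
  induction w with
  | nil =>
    intro p q p' q' h h1 h2
    simp only [run, Option.some.injEq] at h1 h2
    subst h1; subst h2; exact h
  | cons a w ih =>
    intro p q p' q' h h1 h2
    simp only [run] at h1 h2
    cases hp : δ p a with
    | none => simp [hp] at h1
    | some r =>
      cases hq : δ q a with
      | none => simp [hq] at h2
      | some s =>
        simp only [hp, hq, Option.bind_some] at h1 h2
        exact ih r s p' q' (hm a p q r s h hp hq) h1 h2

end runs

/-- the encoding `u_1 b u_2 b ... u_k b` -/
def enc {α : Type} (b : α) (us : List (List α)) : List α := (us.map (· ++ [b])).flatten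

theorem enc_cons {α : Type} (b : α) (u : List α) (us : List (List α)) :
    enc b (u :: us) = u ++ b :: enc b us := by simp [enc]

theorem enc_append {α : Type} (b : α) (us vs : List (List α)) :
    enc b (us ++ vs) = enc b us ++ enc b vs := by simp [enc]

theorem append_cons_inj {α : Type} {b : α} {u v x y : List α} (hu : b ∉ u) (hv : b ∉ v)
    (h : u ++ b :: x = v ++ b :: y) : u = v ∧ x = y := by
  induction u generalizing v with
  | nil =>
    cases v with
    | nil => simpa using h
    | cons c v =>
      simp only [List.nil_append, List.cons_append, List.cons.injEq] at h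
      exact absurd (by rw [h.1]; exact List.mem_cons_self) hv
  | cons a u ih =>
    cases v with
    | nil =>
      simp only [List.nil_append, List.cons_append, List.cons.injEq] at h
      exact absurd (by rw [← h.1]; exact List.mem_cons_self) hu
    | cons c v =>
      simp only [List.cons_append, List.cons.injEq] at h
      obtain ⟨h1, h2⟩ := h
      have := ih (v := v) (fun hh => hu (List.mem_cons_of_mem _ hh))
        (fun hh => hv (List.mem_cons_of_mem _ hh)) h2
      exact ⟨by rw [h1, this.1], this.2⟩

theorem enc_inj {α : Type} {b : α} {us vs : List (List α)} (hu : ∀ u ∈ us, b ∉ u)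
    (hv : ∀ u ∈ vs, b ∉ u) (h : enc b us = enc b vs) : us = vs := by
  induction us generalizing vs with
  | nil =>
    cases vs with
    | nil => rfl
    | cons v vs => simp [enc] at h
  | cons u us ih =>
    cases vs with
    | nil => simp [enc] at h
    | cons v vs =>
      rw [enc_cons, enc_cons] at h
      obtain ⟨h1, h2⟩ := append_cons_inj (hu u List.mem_cons_self) (hv v List.mem_cons_self) h
      rw [h1, ih (fun x hx => hu x (List.mem_cons_of_mem _ hx))
        (fun x hx => hv x (List.mem_cons_of_mem _ hx)) h2]

theorem enc_dec {α : Type} [DecidableEq α] (b : α) (B : Finset α) (w : List α)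
    (hw : ∀ a ∈ w, a ∈ B) :
    ∃ (us : List (List α)) (u : List α), (∀ v ∈ us, ∀ a ∈ v, a ∈ B.erase b) ∧
      (∀ a ∈ u, a ∈ B.erase b) ∧ w = enc b us ++ u := by
  induction w with
  | nil => exact ⟨[], [], by simp, by simp, by simp [enc]⟩
  | cons a w ih =>
    obtain ⟨us, u, h1, h2, h3⟩ := ih (fun x hx => hw x (List.mem_cons_of_mem _ hx))
    by_cases hab : a = b
    · subst hab
      refine ⟨[] :: us, u, ?_, h2, ?_⟩
      · intro v hv
        rcases List.mem_cons.1 hv with rfl | hv
        · simp
        · exact h1 v hv
      · rw [enc_cons, h3]; simp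
    · have ha : a ∈ B.erase b := Finset.mem_erase.2 ⟨hab, hw a List.mem_cons_self⟩
      cases us with
      | nil =>
        refine ⟨[], a :: u, by simp, ?_, ?_⟩
        · intro x hx
          rcases List.mem_cons.1 hx with rfl | hx
          · exact ha
          · exact h2 x hx
        · rw [h3]; simp [enc]
      | cons v us =>
        refine ⟨(a :: v) :: us, u, ?_, h2, ?_⟩
        · intro x hx
          rcases List.mem_cons.1 hx with rfl | hx
          · intro y hy
            rcases List.mem_cons.1 hy with rfl | hy
            · exact ha
            · exact h1 v List.mem_cons_self y hy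
          · exact h1 x (List.mem_cons_of_mem _ hx)
        · rw [h3, enc_cons, enc_cons]; simp

/-- pull back of a language over the new alphabet -/
def pull {α Γ : Type} (b : α) (B' : Set α) (ind : List α → Γ) (L : Set (List Γ)) :
    Set (List α) :=
  {w | ∃ us : List (List α), (∀ u ∈ us, ∀ a ∈ u, a ∈ B') ∧ w = enc b us ∧ us.map ind ∈ L}

theorem pull_H {α Γ : Type} [DecidableEq α] [Finite α] (b : α) (B : Finset α) (hb : b ∈ B)
    (ind : List α → Γ)
    (hlet : ∀ γ : Γ, H 0 {u : List α | (∀ a ∈ u, a ∈ B.erase b) ∧ ind u = γ})
    (P : GRE Γ) (hP : P.sh ≤ 0) : H 0 (pull b (B.erase b : Finset α) ind P.lang) := by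
  induction P with
  | zero =>
    have : pull b (B.erase b : Finset α) ind (GRE.lang (α := Γ) .zero) = ∅ := by
      ext w; simp [pull, GRE.lang]
    rw [this]; exact H_empty
  | one =>
    have : pull b (B.erase b : Finset α) ind (GRE.lang (α := Γ) .one) = {[]} := by
      ext w
      constructor
      · rintro ⟨us, -, rfl, h⟩
        have : us.map ind = [] := h
        simp only [List.map_eq_nil_iff] at this
        subst this; simp [enc]
      · intro h
        obtain rfl : w = [] := h
        exact ⟨[], by simp, by simp [enc], by simp [GRE.lang]⟩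
    rw [this]; exact H_eps
  | letter γ =>
    have : pull b (B.erase b : Finset α) ind (GRE.lang (α := Γ) (.letter γ)) =
        cat {u : List α | (∀ a ∈ u, a ∈ B.erase b) ∧ ind u = γ} {[b]} := by
      ext w
      constructor
      · rintro ⟨us, h1, rfl, h⟩
        have : us.map ind = [γ] := h
        obtain ⟨u, rfl, hu⟩ : ∃ u, us = [u] ∧ ind u = γ := by
          cases us with
          | nil => simp at this
          | cons u us =>
            cases us with
            | nil => exact ⟨u, rfl, by simpa using this⟩
            | cons v us => simp at this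
        exact ⟨u, ⟨fun a ha => Finset.mem_coe.1 (h1 u (by simp) a ha), hu⟩, [b], rfl, by simp [enc]⟩
      · rintro ⟨u, ⟨h1, h2⟩, x, hx, rfl⟩
        obtain rfl : x = [b] := hx
        refine ⟨[u], ?_, by simp [enc], ?_⟩
        · intro v hv
          obtain rfl : v = u := by simpa using hv
          exact fun a ha => Finset.mem_coe.2 (h1 a ha)
        · show [u].map ind ∈ ({[γ]} : Set _)
          simp [h2]
    rw [this]; exact (hlet γ).cat (H_letter b)
  | add P Q ihP ihQ =>
    simp only [GRE.sh, max_le_iff] at hP
    have : pull b (B.erase b : Finset α) ind (P.add Q).lang =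
        pull b (B.erase b : Finset α) ind P.lang ∪ pull b (B.erase b : Finset α) ind Q.lang := by
      ext w
      constructor
      · rintro ⟨us, h1, h2, h3⟩
        rcases h3 with h3 | h3
        · exact Or.inl ⟨us, h1, h2, h3⟩
        · exact Or.inr ⟨us, h1, h2, h3⟩
      · rintro (⟨us, h1, h2, h3⟩ | ⟨us, h1, h2, h3⟩)
        · exact ⟨us, h1, h2, Or.inl h3⟩
        · exact ⟨us, h1, h2, Or.inr h3⟩
    rw [this]; exact (ihP hP.1).union (ihQ hP.2)
  | mul P Q ihP ihQ =>
    simp only [GRE.sh, max_le_iff] at hP
    have : pull b (B.erase b : Finset α) ind (P.mul Q).lang =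
        cat (pull b (B.erase b : Finset α) ind P.lang)
          (pull b (B.erase b : Finset α) ind Q.lang) := by
      ext w
      constructor
      · rintro ⟨us, h1, rfl, x, hx, y, hy, h3⟩
        obtain ⟨us1, us2, rfl, rfl, rfl⟩ := List.map_eq_append_iff.1 h3
        refine ⟨enc b us1, ⟨us1, fun u hu => h1 u (by simp [hu]), rfl, hx⟩, enc b us2,
          ⟨us2, fun u hu => h1 u (by simp [hu]), rfl, hy⟩, enc_append b us1 us2⟩
      · rintro ⟨x, ⟨us1, h1, rfl, h2⟩, y, ⟨us2, h3, rfl, h4⟩, rfl⟩
        refine ⟨us1 ++ us2, ?_, (enc_append b us1 us2).symm, ?_⟩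
        · intro u hu
          rcases List.mem_append.1 hu with hu | hu
          · exact h1 u hu
          · exact h3 u hu
        · exact ⟨us1.map ind, h2, us2.map ind, h4, by simp⟩
    rw [this]; exact (ihP hP.1).cat (ihQ hP.2)
  | compl P ihP =>
    simp only [GRE.sh] at hP
    have : pull b (B.erase b : Finset α) ind (P.compl).lang =
        ({[]} ∪ cat {w : List α | ∀ a ∈ w, a ∈ (B : Set α)} {[b]}) ∩
          (pull b (B.erase b : Finset α) ind P.lang)ᶜ := by
      ext w
      constructor
      · rintro ⟨us, h1, rfl, h3⟩
        constructor
        · rcases List.eq_nil_or_concat us with rfl | ⟨us', u, rfl⟩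
          · left; simp [enc]
          · right
            refine ⟨enc b us' ++ u, ?_, [b], rfl, by simp [enc]⟩
            intro a ha
            rcases List.mem_append.1 ha with ha | ha
            · simp only [enc, List.mem_flatten, List.mem_map] at ha
              obtain ⟨l, ⟨v, hv, rfl⟩, hl⟩ := ha
              rcases List.mem_append.1 hl with hl | hl
              · exact Finset.mem_coe.2 (Finset.mem_of_mem_erase
                  (Finset.mem_coe.1 (h1 v (by simp [hv]) a hl)))
              · obtain rfl : a = b := by simpa using hl
                simpa using hb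
            · exact Finset.mem_coe.2 (Finset.mem_of_mem_erase
                (Finset.mem_coe.1 (h1 u (by simp) a ha)))
        · rintro ⟨vs, g1, g2, g3⟩
          have hb1 : ∀ u ∈ us, b ∉ u := fun u hu hh => by
            have := h1 u hu b hh; simp at this
          have hb2 : ∀ u ∈ vs, b ∉ u := fun u hu hh => by
            have := g1 u hu b hh; simp at this
          have : us = vs := enc_inj hb1 hb2 g2
          subst this
          exact h3 g3
      · rintro ⟨h1, h2⟩
        have : ∃ us : List (List α), (∀ u ∈ us, ∀ a ∈ u, a ∈ ((B.erase b : Finset α) : Set α)) ∧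
            w = enc b us := by
          rcases h1 with h1 | ⟨x, hx, y, hy, rfl⟩
          · obtain rfl : w = [] := h1
            exact ⟨[], by simp, by simp [enc]⟩
          · obtain rfl : y = [b] := hy
            obtain ⟨us, u, g1, g2, rfl⟩ := enc_dec b B x (fun a ha => by simpa using hx a ha)
            refine ⟨us ++ [u], ?_, by simp [enc]⟩
            intro v hv
            rcases List.mem_append.1 hv with hv | hv
            · exact fun a ha => Finset.mem_coe.2 (g1 v hv a ha)
            · obtain rfl : v = u := by simpa using hv
              exact fun a ha => Finset.mem_coe.2 (g2 a ha)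
        obtain ⟨us, g1, g2⟩ := this
        exact ⟨us, g1, g2, fun g3 => h2 ⟨us, g1, g2, g3⟩⟩
    rw [this]
    exact (H_eps.union ((H_over _).cat (H_letter b))).inter (ihP hP).compl
  | star P ihP => simp [GRE.sh] at hP

end Vale.Agent.H24.GSH
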