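import Vale.Agent.H24.GSH.S

namespace Vale.Agent.H24.GSH

theorem im_card' {α Q : Type} [Fintype Q] [LinearOrder Q]
    (δ : Q → α → Option Q) (hm : Mono δ) (b : α)
    (h : ∀ q', ∃ q, δ q b = some q') (q : Q) : δ q b = some q := by
  classical
  choose g hg using h
  have ginj : Function.Injective g := by
    intro x y hxy
    have h1 := hg x
    rw [hxy, hg y] at h1
    exact (Option.some.inj h1).symm
  have gbij : Function.Bijective g := Finite.injective_iff_bijective.1 ginj
  have gmono : StrictMono g := by
    intro x y hxy
    by_contra hcon
    rcases lt_or_eq_of_le (not_lt.1 hcon) with hlt | heq
    · exact absurd (hm b (g y) (g x) y x hlt (hg y) (hg x)) (not_lt.2 hxy.le)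
    · exact absurd (ginj heq) (ne_of_gt hxy)
  have hid : ∀ x, g x = x := fun x => le_antisymm gmono.apply_le gmono.le_apply
  have := hg q
  rwa [hid q] at this

theorem sf_over (N : ℕ) : ∀ (Q : Type) [Fintype Q] [LinearOrder Q], Fintype.card Q ≤ N →
    ∀ (α : Type) [Fintype α] [DecidableEq α] (δ : Q → α → Option Q), Mono δ →
    ∀ (n : ℕ) (B : Finset α), B.card ≤ n → ∀ (i j : Q),
    H 0 {w : List α | (∀ a ∈ w, a ∈ B) ∧ run δ i w = some j} := by
  classical
  induction N with
  | zero =>
    intro Q _ _ hQ α _ _ δ hm n B hB i j
    have := Fintype.card_pos_iff.2 ⟨i⟩
    omega
  | succ N ihN =>
    intro Q _ _ hQ α _ _ δ hm n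
    induction n with
    | zero =>
      intro B hB i j
      have hB0 : B = ∅ := Finset.card_eq_zero.1 (Nat.le_zero.1 hB)
      subst hB0
      by_cases hij : i = j
      · subst hij
        have : {w : List α | (∀ a ∈ w, a ∈ (∅ : Finset α)) ∧ run δ i w = some i} = {[]} := by
          ext w
          constructor
          · rintro ⟨h1, -⟩
            exact List.eq_nil_iff_forall_not_mem.2 fun a ha => by simpa using h1 a ha
          · intro h
            obtain rfl : w = [] := h
            exact ⟨by simp, by simp [run]⟩
        rw [this]; exact H_eps
      · have : {w : List α | (∀ a ∈ w, a ∈ (∅ : Finset α)) ∧ run δ i w = some j} = ∅ := by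
          ext w
          constructor
          · rintro ⟨h1, h2⟩
            have : w = [] := List.eq_nil_iff_forall_not_mem.2 fun a ha => by simpa using h1 a ha
            subst this
            simp [run] at h2
            exact absurd h2 hij
          · intro h; exact absurd h (by simp)
        rw [this]; exact H_empty
    | succ n ihn =>
      intro B hB i j
      by_cases hall : ∀ b ∈ B, ∀ q, δ q b = some q
      · -- all letters are the identity
        have hrun : ∀ w : List α, (∀ a ∈ w, a ∈ B) → run δ i w = some i := by
          intro w
          induction w with
          | nil => intro _; simp [run]
          | cons a w ih =>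
            intro hw
            simp only [run, hall a (hw a List.mem_cons_self) i, Option.bind_some]
            exact ih fun x hx => hw x (List.mem_cons_of_mem _ hx)
        by_cases hij : i = j
        · subst hij
          have : {w : List α | (∀ a ∈ w, a ∈ B) ∧ run δ i w = some i} =
              {w : List α | ∀ a ∈ w, a ∈ (B : Set α)} := by
            ext w
            exact ⟨fun h a ha => Finset.mem_coe.2 (h.1 a ha), fun h =>
              ⟨fun a ha => Finset.mem_coe.1 (h a ha),
                hrun w fun a ha => Finset.mem_coe.1 (h a ha)⟩⟩
          rw [this]; exact H_over _
        · have : {w : List α | (∀ a ∈ w, a ∈ B) ∧ run δ i w = some j} = ∅ := by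
            ext w
            constructor
            · rintro ⟨h1, h2⟩
              rw [hrun w h1] at h2
              exact absurd (Option.some.inj h2) hij
            · intro h; exact absurd h (by simp)
          rw [this]; exact H_empty
      · push Not at hall
        obtain ⟨b, hb, q0, hq0⟩ := hall
        -- the smaller alphabet
        have hBe : (B.erase b).card ≤ n := by
          have := Finset.card_erase_of_mem hb; omega
        have IHB := ihn (B.erase b) hBe
        -- the image
        let Q' : Type := {q' : Q // ∃ q, δ q b = some q'}
        have hcard : Fintype.card Q' ≤ N := by
          have h1 : Fintype.card Q' < Fintype.card Q := by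
            by_contra hcon
            have h2 : ∀ q', ∃ q, δ q b = some q' := by
              by_contra h3
              push Not at h3
              obtain ⟨x, hx⟩ := h3
              exact hcon (Fintype.card_subtype_lt (x := x) (by
                rintro ⟨q, hq⟩; exact hx q hq))
            exact hq0 (im_card' δ hm b h2 q0)
          omega
        let Γ : Type := {f : Q' → Option Q' // ∀ p q p' q' : Q', p < q → f p = some p' →
          f q = some q' → p' < q'}
        have hmem : ∀ (q : Q) (u : List α) (r : Q), run δ q (u ++ [b]) = some r →
            ∃ q, δ q b = some r := by
          intro q u r h
          rw [run_append] at h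
          cases hh : run δ q u with
          | none => simp [hh] at h
          | some p =>
            refine ⟨p, ?_⟩
            simp only [hh, Option.bind_some, run] at h
            cases h3 : δ p b with
            | none => simp [h3] at h
            | some z => simpa [h3] using h
        let indf : List α → Q' → Option Q' := fun u q =>
          match h : run δ q.1 (u ++ [b]) with
          | none => none
          | some r => some ⟨r, hmem q.1 u r h⟩
        have indf_iff : ∀ u q r, indf u q = some r ↔ run δ q.1 (u ++ [b]) = some r.1 := by
          intro u q r
          simp only [indf]
          split
          · next h => simp [h]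
          · next z h =>
            constructor
            · intro h4
              exact h.trans (congrArg some (congrArg Subtype.val (Option.some.inj h4)))
            · intro h4
              have h5 : z = r.1 := Option.some.inj (h.symm.trans h4)
              exact congrArg some (Subtype.ext h5)
        let ind : List α → Γ := fun u => ⟨indf u, by
          intro p q p' q' hpq h1 h2
          rw [indf_iff] at h1 h2
          exact run_mono hm _ p.1 q.1 p'.1 q'.1 hpq h1 h2⟩
        let δ' : Q' → Γ → Option Q' := fun q γ => γ.1 q
        have hm' : Mono δ' := fun γ p q p' q' h h1 h2 => γ.2 p q p' q' h h1 h2
        have : Fintype Γ := Fintype.ofFinite Γ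
        have IHQ := fun i' j' => ihN Q' hcard Γ δ' hm' (Fintype.card Γ) Finset.univ
          (Finset.card_univ.le) i' j'
        -- languages R
        have hR : ∀ (q : Q) (r : Q'), H 0 {u : List α | (∀ a ∈ u, a ∈ B.erase b) ∧
            run δ q (u ++ [b]) = some r.1} := by
          intro q r
          have h := H_iUnion_prop (k := 0) (fun p : Q => δ p b = some r.1)
            (fun p => {u : List α | (∀ a ∈ u, a ∈ B.erase b) ∧ run δ q u = some p})
            (fun p _ => IHB q p)
          convert h using 1
          ext u
          constructor
          · rintro ⟨h1, h2⟩
            rw [run_append] at h2
            cases hh : run δ q u with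
            | none => simp [hh] at h2
            | some p =>
              refine ⟨p, ?_, h1, hh⟩
              simp only [hh, Option.bind_some, run] at h2
              cases h3 : δ p b with
              | none => simp [h3] at h2
              | some z => simpa [h3] using h2
          · rintro ⟨p, h1, h2, h3⟩
            refine ⟨h2, ?_⟩
            rw [run_append, h3]
            simp [run, h1]
        have hlet : ∀ γ : Γ, H 0 {u : List α | (∀ a ∈ u, a ∈ B.erase b) ∧ ind u = γ} := by
          intro γ
          have h1 : H 0 (⋂ q : Q', ⋂ r : Q', (if γ.1 q = some r then
              {u : List α | (∀ a ∈ u, a ∈ B.erase b) ∧ run δ q.1 (u ++ [b]) = some r.1}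
              else {u : List α | (∀ a ∈ u, a ∈ B.erase b) ∧
                run δ q.1 (u ++ [b]) = some r.1}ᶜ)) := by
            apply H_iInter; intro q
            apply H_iInter; intro r
            split
            · exact hR q.1 r
            · exact (hR q.1 r).compl
          have h2 := (H_over (α := α) (B.erase b : Finset α)).inter h1
          convert h2 using 1
          ext u
          constructor
          · rintro ⟨g1, g2⟩
            refine ⟨fun a ha => Finset.mem_coe.2 (g1 a ha), ?_⟩
            simp only [Set.mem_iInter]
            intro q r
            split
            · next g3 =>
              rw [← g2] at g3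
              exact ⟨g1, (indf_iff u q r).1 g3⟩
            · next g3 =>
              rw [← g2] at g3
              rintro ⟨-, g4⟩
              exact g3 ((indf_iff u q r).2 g4)
          · rintro ⟨g1, g2⟩
            have g1' : ∀ a ∈ u, a ∈ B.erase b := fun a ha => Finset.mem_coe.1 (g1 a ha)
            refine ⟨g1', ?_⟩
            apply Subtype.ext
            funext q
            simp only [Set.mem_iInter] at g2
            apply Option.ext
            intro r
            have g3 := g2 q r
            constructor
            · intro g4
              by_contra g5
              rw [if_neg g5] at g3
              exact g3 ⟨g1', (indf_iff u q r).1 g4⟩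
            · intro g4
              rw [if_pos g4] at g3
              exact (indf_iff u q r).2 g3.2
        -- run of encodings
        have hrunenc : ∀ (us : List (List α)) (q r : Q'),
            run δ q.1 (enc b us) = some r.1 ↔ run δ' q (us.map ind) = some r := by
          intro us
          induction us with
          | nil =>
            intro q r
            simp only [enc, List.map_nil, List.flatten_nil, run, Option.some.injEq]
            exact ⟨fun h => Subtype.ext h, fun h => congrArg _ h⟩
          | cons u us ih =>
            intro q r
            have e1 : enc b (u :: us) = (u ++ [b]) ++ enc b us := by simp [enc_cons]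
            rw [e1, run_append]
            simp only [List.map_cons, run]
            show _ ↔ (indf u q).bind (fun q' => run δ' q' (us.map ind)) = some r
            cases hh : indf u q with
            | none =>
              have h1 : run δ q.1 (u ++ [b]) = none := by
                cases h2 : run δ q.1 (u ++ [b]) with
                | none => rfl
                | some z =>
                  have := (indf_iff u q ⟨z, hmem _ _ _ h2⟩).2 h2
                  rw [hh] at this
                  exact absurd this (by simp)
              simp [h1]
            | some z =>
              have h1 := (indf_iff u q z).1 hh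
              rw [h1]
              simp only [Option.bind_some]
              exact ih z r
        -- the middle part
        have hmid : ∀ q r : Q', H 0 (pull b (B.erase b : Finset α) ind
            {v : List Γ | run δ' q v = some r}) := by
          intro q r
          obtain ⟨P, hP1, hP2⟩ := IHQ q r
          have := pull_H b B hb ind hlet P hP1
          rw [hP2] at this
          simpa using this
        have hfin : H 0 ({w : List α | (∀ a ∈ w, a ∈ B.erase b) ∧ run δ i w = some j} ∪
            ⋃ q : Q', ⋃ r : Q', cat {u : List α | (∀ a ∈ u, a ∈ B.erase b) ∧
              run δ i (u ++ [b]) = some q.1} (cat {[b]} (cat (pull b (B.erase b : Finset α) ind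
                {v : List Γ | run δ' q v = some r})
                {w : List α | (∀ a ∈ w, a ∈ B.erase b) ∧ run δ r.1 w = some j}))) := by
          apply (IHB i j).union
          apply H_iUnion; intro q
          apply H_iUnion; intro r
          exact (hR i q).cat ((H_letter b).cat ((hmid q r).cat (IHB r.1 j)))
        convert hfin using 1
        ext w
        constructor
        · rintro ⟨h1, h2⟩
          obtain ⟨us, u, g1, g2, rfl⟩ := enc_dec b B w h1
          cases us with
          | nil =>
            left
            refine ⟨fun a ha => g2 a (by simpa [enc] using ha), h2⟩
          | cons v us =>
            right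
            have e1 : enc b (v :: us) ++ u = (v ++ [b]) ++ (enc b us ++ u) := by simp [enc_cons]
            rw [e1, run_append] at h2
            cases hh : run δ i (v ++ [b]) with
            | none => simp [hh] at h2
            | some q =>
              simp only [hh, Option.bind_some] at h2
              rw [run_append] at h2
              cases hh2 : run δ q (enc b us) with
              | none => simp [hh2] at h2
              | some r =>
                simp only [hh2, Option.bind_some] at h2
                have hq : ∃ p, δ p b = some q := hmem _ _ _ hh
                have hr : ∃ p, δ p b = some r := by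
                  rcases List.eq_nil_or_concat us with rfl | ⟨us', x, rfl⟩
                  · simp only [enc, List.map_nil, List.flatten_nil, run,
                      Option.some.injEq] at hh2
                    subst hh2; exact hq
                  · have e2 : enc b (us' ++ [x]) = (enc b us' ++ x) ++ [b] := by simp [enc]
                    rw [List.concat_eq_append, e2] at hh2
                    exact hmem _ _ _ hh2
                simp only [Set.mem_iUnion]
                refine ⟨⟨q, hq⟩, ⟨r, hr⟩, v, ⟨g1 v (by simp), hh⟩, b :: (enc b us ++ u),
                  ⟨[b], rfl, enc b us ++ u, ⟨enc b us, ⟨us, ?_, rfl, ?_⟩, u, ⟨g2, h2⟩, rfl⟩,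
                    rfl⟩, by simp [enc_cons]⟩
                · intro x hx a ha
                  exact Finset.mem_coe.2 (g1 x (List.mem_cons_of_mem _ hx) a ha)
                · exact (hrunenc us ⟨q, hq⟩ ⟨r, hr⟩).1 hh2
        · rintro (⟨h1, h2⟩ | h)
          · exact ⟨fun a ha => Finset.mem_of_mem_erase (h1 a ha), h2⟩
          · simp only [Set.mem_iUnion] at h
            obtain ⟨q, r, v, ⟨h1, h2⟩, x, ⟨y, hy, z, ⟨m, ⟨us, g1, rfl, g3⟩, u, ⟨g4, g5⟩, rfl⟩,
              rfl⟩, rfl⟩ := h
            obtain rfl : y = [b] := hy
            refine ⟨?_, ?_⟩
            · intro a ha
              simp only [List.mem_append, List.mem_singleton] at ha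
              rcases ha with ha | ha | ha | ha
              · exact Finset.mem_of_mem_erase (h1 a ha)
              · rw [ha]; exact hb
              · simp only [enc, List.mem_flatten, List.mem_map] at ha
                obtain ⟨l, ⟨s, hs, rfl⟩, hl⟩ := ha
                rcases List.mem_append.1 hl with hl | hl
                · exact Finset.mem_of_mem_erase (Finset.mem_coe.1 (g1 s hs a hl))
                · obtain rfl : a = b := by simpa using hl
                  exact hb
              · exact Finset.mem_of_mem_erase (g4 a ha)
            · have e1 : v ++ ([b] ++ (enc b us ++ u)) = (v ++ [b]) ++ (enc b us ++ u) := by simp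
              rw [e1, run_append, h2]
              simp only [Option.bind_some]
              rw [run_append, (hrunenc us q r).2 g3]
              simpa using g5

/-- ROW S -/
theorem sf_run {α Q : Type} [Fintype α] [DecidableEq α] [Fintype Q] [LinearOrder Q]
    (δ : Q → α → Option Q) (hm : Mono δ) (i j : Q) :
    H 0 {w : List α | run δ i w = some j} := by
  have := sf_over (Fintype.card Q) Q le_rfl α δ hm (Fintype.card α) Finset.univ
    (Finset.card_univ.le) i j
  simpa using this

end Vale.Agent.H24.GSH
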